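import Vale.Agent.P220.H64.ParInt
import Vale.Agent.P264.H403.Seeley

/-!
# Smooth even periodic functions are smooth functions of the cosine
-/

open Set Filter Topology
open scoped ContDiff

namespace Vale.Agent.P220.R2.H180

/-- The difference quotient of `u`, as an integral. -/
noncomputable def hd (u : ℝ → ℝ) (x : ℝ × ℝ) : ℝ :=
  ∫ r in (0 : ℝ)..1, deriv u (x.1 + r * (x.2 - x.1))

theorem hd_smooth {u : ℝ → ℝ} (hu : ContDiff ℝ ∞ u) : ContDiff ℝ ∞ (hd u) := by
  have h1 : ContDiff ℝ ∞ (deriv u) := ((contDiff_infty_iff_deriv (𝕜 := ℝ)).1 hu).2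
  have h2 : ContDiff ℝ ∞ fun y : (ℝ × ℝ) × ℝ => deriv u (y.1.1 + y.2 * (y.1.2 - y.1.1)) :=
    h1.comp ((contDiff_fst.comp contDiff_fst).add (contDiff_snd.mul
      ((contDiff_snd.comp contDiff_fst).sub (contDiff_fst.comp contDiff_fst))))
  exact H64.contDiff_integral_unit h2

theorem hd_mul {u : ℝ → ℝ} (hu : ContDiff ℝ ∞ u) (a x : ℝ) : u x - u a = (x - a) * hd u (a, x) := by
  have h1 : ContDiff ℝ ∞ (deriv u) := ((contDiff_infty_iff_deriv (𝕜 := ℝ)).1 hu).2
  have h2 : ∀ r ∈ uIcc (0 : ℝ) 1, HasDerivAt (fun r => u (a + r * (x - a)))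
      ((x - a) * deriv u (a + r * (x - a))) r := by
    intro r _
    have h3 : HasDerivAt (fun r : ℝ => a + r * (x - a)) (x - a) r := by
      simpa using ((hasDerivAt_id r).mul_const (x - a)).const_add a
    have h4 : HasDerivAt u (deriv u (a + r * (x - a))) (a + r * (x - a)) :=
      (hu.differentiable (by simp) _).hasDerivAt
    have h5 := h4.comp r h3
    rw [mul_comm] at h5
    exact h5
  have h3 := intervalIntegral.integral_eq_sub_of_hasDerivAt h2 (by
    refine Continuous.intervalIntegrable ?_ _ _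
    exact continuous_const.mul (h1.continuous.comp (by fun_prop)))
  rw [intervalIntegral.integral_const_mul] at h3
  simp only [one_mul, zero_mul, add_zero, add_sub_cancel] at h3
  exact h3.symm

theorem hd_diag {u : ℝ → ℝ} (a : ℝ) : hd u (a, a) = deriv u a := by
  simp [hd]

/-- the smooth quotient of `u` by a function `v` with simple zeros at which `u` vanishes -/
noncomputable def quot (u v : ℝ → ℝ) (x : ℝ) : ℝ := if v x = 0 then deriv u x / deriv v x
  else u x / v x

theorem quot_mul {u v : ℝ → ℝ} (h : ∀ x, v x = 0 → u x = 0) (x : ℝ) : u x = v x * quot u v x := by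
  unfold quot
  split_ifs with h1
  · rw [h x h1, h1, zero_mul]
  · field_simp

theorem quot_smooth {u v : ℝ → ℝ} (hu : ContDiff ℝ ∞ u) (hv : ContDiff ℝ ∞ v)
    (h : ∀ x, v x = 0 → u x = 0 ∧ deriv v x ≠ 0) : ContDiff ℝ ∞ (quot u v) := by
  rw [contDiff_iff_contDiffAt]
  intro a
  by_cases ha : v a = 0
  · obtain ⟨hua, hva⟩ := h a ha
    have hU : ContDiff ℝ ∞ fun x => hd u (a, x) :=
      (hd_smooth hu).comp (contDiff_const.prodMk contDiff_id)
    have hV : ContDiff ℝ ∞ fun x => hd v (a, x) :=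
      (hd_smooth hv).comp (contDiff_const.prodMk contDiff_id)
    have hVa : hd v (a, a) ≠ 0 := by rwa [hd_diag]
    have h1 : ContDiffAt ℝ ∞ (fun x => hd u (a, x) / hd v (a, x)) a :=
      hU.contDiffAt.div hV.contDiffAt hVa
    refine h1.congr_of_eventuallyEq ?_
    have h2 : ∀ᶠ x in 𝓝 a, hd v (a, x) ≠ 0 :=
      (hV.continuous.tendsto a).eventually_ne hVa
    filter_upwards [h2] with x hx
    have e1 := hd_mul hu a x
    have e2 := hd_mul hv a x
    rw [hua, sub_zero] at e1
    rw [ha, sub_zero] at e2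
    unfold quot
    by_cases hxa : x = a
    · subst hxa
      rw [if_pos ha, hd_diag, hd_diag]
    · have h3 : x - a ≠ 0 := sub_ne_zero.2 hxa
      have h4 : v x ≠ 0 := by
        rw [e2]
        exact mul_ne_zero h3 hx
      rw [if_neg h4, e1, e2, mul_div_mul_left _ _ h3]
  · have h1 : ContDiffAt ℝ ∞ (fun x => u x / v x) a := hu.contDiffAt.div hv.contDiffAt ha
    refine h1.congr_of_eventuallyEq ?_
    have h2 : ∀ᶠ x in 𝓝 a, v x ≠ 0 := (hv.continuous.tendsto a).eventually_ne ha
    filter_upwards [h2] with x hx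
    unfold quot
    rw [if_neg hx]

/-- smooth, even and `2π`-periodic -/
structure Sym (V : ℝ → ℝ) : Prop where
  smooth : ContDiff ℝ ∞ V
  even : ∀ θ, V (-θ) = V θ
  per : ∀ θ, V (θ + 2 * Real.pi) = V θ

namespace Sym

variable {V : ℝ → ℝ}

theorem deriv_neg (h : Sym V) (θ : ℝ) : deriv V (-θ) = -deriv V θ := by
  have h1 : (fun x => V (-x)) = V := funext h.even
  have h2 := deriv_comp_neg (f := V) (-θ)
  rw [neg_neg, h1] at h2
  exact h2

theorem deriv_per (h : Sym V) (θ : ℝ) : deriv V (θ + 2 * Real.pi) = deriv V θ := by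
  have h1 : (fun x => V (x + 2 * Real.pi)) = V := funext h.per
  have h2 := deriv_comp_add_const (f := V) (2 * Real.pi) θ
  rw [h1] at h2
  exact h2.symm

theorem per_int (h : Sym V) (θ : ℝ) (k : ℤ) : V (θ + k * (2 * Real.pi)) = V θ := by
  have h1 : Function.Periodic V (2 * Real.pi) := h.per
  have h2 := h1.int_mul k
  exact h2 θ

theorem deriv_zero (h : Sym V) {θ : ℝ} (hθ : Real.sin θ = 0) : deriv V θ = 0 := by
  obtain ⟨k, rfl⟩ := Real.sin_eq_zero_iff.1 hθ
  have h1 : Function.Periodic (deriv V) (2 * Real.pi) := h.deriv_per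
  have h2 := h1.int_mul k (-(k * Real.pi))
  have h3 : -(k * Real.pi) + k * (2 * Real.pi) = k * Real.pi := by ring
  rw [h3, h.deriv_neg] at h2
  linarith

theorem aux (h : Sym V) : ∀ x, -Real.sin x = 0 → deriv V x = 0 ∧ deriv (fun x => -Real.sin x) x ≠ 0 := by
  intro x hx
  have hs : Real.sin x = 0 := by linarith
  refine ⟨h.deriv_zero hs, ?_⟩
  have h1 : deriv (fun x => -Real.sin x) x = -Real.cos x := (Real.hasDerivAt_sin x).neg.deriv
  rw [h1]
  have h2 := Real.sin_sq_add_cos_sq x
  intro h3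
  have h4 : Real.cos x = 0 := by linarith
  rw [hs, h4] at h2
  norm_num at h2

/-- `V' = -sin θ · q(θ)` -/
noncomputable def next (V : ℝ → ℝ) : ℝ → ℝ := quot (deriv V) (fun x => -Real.sin x)

theorem next_mul (h : Sym V) (θ : ℝ) : deriv V θ = -Real.sin θ * next V θ :=
  quot_mul (fun x hx => (h.aux x hx).1) θ

theorem next_sym (h : Sym V) : Sym (next V) := by
  have hs : ContDiff ℝ ∞ (fun x => -Real.sin x) := Real.contDiff_sin.neg
  have hV' : ContDiff ℝ ∞ (deriv V) := ((contDiff_infty_iff_deriv (𝕜 := ℝ)).1 h.smooth).2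
  have hds : ∀ x, deriv (fun x => -Real.sin x) x = -Real.cos x := fun x =>
    (Real.hasDerivAt_sin x).neg.deriv
  have hdd : ∀ θ, deriv (deriv V) (-θ) = deriv (deriv V) θ := by
    intro θ
    have h1 : (fun x => deriv V (-x)) = fun x => -deriv V x := funext h.deriv_neg
    have h2 := deriv_comp_neg (f := deriv V) θ
    rw [h1, deriv.fun_neg] at h2
    linarith
  have hdp : ∀ θ, deriv (deriv V) (θ + 2 * Real.pi) = deriv (deriv V) θ := by
    intro θ
    have h1 : (fun x => deriv V (x + 2 * Real.pi)) = deriv V := funext h.deriv_per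
    have h2 := deriv_comp_add_const (f := deriv V) (2 * Real.pi) θ
    rw [h1] at h2
    exact h2.symm
  refine ⟨quot_smooth hV' hs h.aux, fun θ => ?_, fun θ => ?_⟩
  · unfold next quot
    simp only [hds, Real.sin_neg, Real.cos_neg, h.deriv_neg, hdd, neg_neg, neg_eq_zero]
    split_ifs
    · rfl
    · rw [neg_div, div_neg]
  · unfold next quot
    simp only [hds, Real.sin_add_two_pi, Real.cos_add_two_pi, h.deriv_per, hdp]

/-- `V` as a function of the cosine -/
noncomputable def G (V : ℝ → ℝ) (x : ℝ) : ℝ := V (Real.arccos x)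

theorem G_cont (h : Sym V) : Continuous (G V) := h.smooth.continuous.comp Real.continuous_arccos

theorem G_deriv (h : Sym V) {x : ℝ} (hx : x ∈ Ioo (-1 : ℝ) 1) : HasDerivAt (G V) (G (next V) x) x := by
  have h1 := Real.hasDerivAt_arccos (ne_of_gt hx.1) (ne_of_lt hx.2)
  have h2 : HasDerivAt V (deriv V (Real.arccos x)) (Real.arccos x) :=
    (h.smooth.differentiable (by simp) _).hasDerivAt
  have h3 := h2.comp x h1
  have h4 : 0 < 1 - x ^ 2 := by nlinarith [hx.1, hx.2]
  have h5 : deriv V (Real.arccos x) * -(1 / √(1 - x ^ 2)) = G (next V) x := by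
    rw [h.next_mul, Real.sin_arccos]
    have h6 : √(1 - x ^ 2) ≠ 0 := (Real.sqrt_pos.2 h4).ne'
    unfold G
    field_simp
  rw [← h5]
  exact h3

theorem G_derivWithin (h : Sym V) {x : ℝ} (hx : x ∈ Icc (-1 : ℝ) 1) :
    HasDerivWithinAt (G V) (G (next V) x) (Icc (-1) 1) x := by
  rcases eq_or_lt_of_le hx.1 with h1 | h1
  · subst h1
    have h2 : HasDerivWithinAt (G V) (G (next V) (-1)) (Ici (-1)) (-1) := by
      refine hasDerivWithinAt_Ici_of_tendsto_deriv (s := Ioo (-1) 1)
        (fun y hy => (h.G_deriv hy).differentiableAt.differentiableWithinAt)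
        h.G_cont.continuousWithinAt (Ioo_mem_nhdsGT (by norm_num)) ?_
      have h3 : Tendsto (G (next V)) (𝓝[>] (-1)) (𝓝 (G (next V) (-1))) :=
        (h.next_sym.G_cont.tendsto _).mono_left nhdsWithin_le_nhds
      refine h3.congr' ?_
      filter_upwards [Ioo_mem_nhdsGT (show (-1 : ℝ) < 1 by norm_num)] with y hy
      exact (h.G_deriv hy).deriv.symm
    exact h2.mono Icc_subset_Ici_self
  · rcases eq_or_lt_of_le hx.2 with h2 | h2
    · subst h2
      have h2 : HasDerivWithinAt (G V) (G (next V) 1) (Iic 1) 1 := by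
        refine hasDerivWithinAt_Iic_of_tendsto_deriv (s := Ioo (-1) 1)
          (fun y hy => (h.G_deriv hy).differentiableAt.differentiableWithinAt)
          h.G_cont.continuousWithinAt (Ioo_mem_nhdsLT (by norm_num)) ?_
        have h3 : Tendsto (G (next V)) (𝓝[<] 1) (𝓝 (G (next V) 1)) :=
          (h.next_sym.G_cont.tendsto _).mono_left nhdsWithin_le_nhds
        refine h3.congr' ?_
        filter_upwards [Ioo_mem_nhdsLT (show (-1 : ℝ) < 1 by norm_num)] with y hy
        exact (h.G_deriv hy).deriv.symm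
      exact h2.mono Icc_subset_Iic_self
    · exact (h.G_deriv ⟨h1, h2⟩).hasDerivWithinAt

theorem G_smooth (n : ℕ) : ∀ V : ℝ → ℝ, Sym V → ContDiffOn ℝ n (G V) (Icc (-1) 1) := by
  induction n with
  | zero =>
    intro V h
    simpa using h.G_cont.continuousOn
  | succ n ih =>
    intro V h
    have hud : UniqueDiffOn ℝ (Icc (-1 : ℝ) 1) := uniqueDiffOn_Icc (by norm_num)
    have e : ((n + 1 : ℕ) : WithTop ℕ∞) = (n : WithTop ℕ∞) + 1 := by push_cast; rfl
    rw [e, contDiffOn_succ_iff_derivWithin hud]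
    refine ⟨fun x hx => (h.G_derivWithin hx).differentiableWithinAt, fun hn => ?_, ?_⟩
    · exact absurd hn (by simp)
    · refine (ih _ h.next_sym).congr fun x hx => ?_
      exact (h.G_derivWithin hx).derivWithin (hud x hx)

theorem arccos_cos (h : Sym V) (θ : ℝ) : V (Real.arccos (Real.cos θ)) = V θ := by
  have h1 : Real.cos (Real.arccos (Real.cos θ)) = Real.cos θ :=
    Real.cos_arccos (Real.neg_one_le_cos θ) (Real.cos_le_one θ)
  obtain ⟨k, hk | hk⟩ := Real.cos_eq_cos_iff.1 h1
  · have h2 := h.per_int (Real.arccos (Real.cos θ)) k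
    have e : Real.arccos (Real.cos θ) + k * (2 * Real.pi) = θ := by linear_combination -hk
    rw [e] at h2
    exact h2.symm
  · have h2 := h.per_int (-Real.arccos (Real.cos θ)) k
    rw [h.even] at h2
    have e : -Real.arccos (Real.cos θ) + k * (2 * Real.pi) = θ := by linear_combination -hk
    rw [e] at h2
    exact h2.symm

/-- A smooth even `2π`-periodic function is a smooth function of `(1 - cos θ) / 2`. -/
theorem exists_cos (h : Sym V) :
    ∃ c : ℝ → ℝ, ContDiff ℝ ∞ c ∧ ∀ θ, c ((1 - Real.cos θ) / 2) = V θ := by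
  have h1 : ContDiffOn ℝ ∞ (G V) (Icc (-1) 1) := contDiffOn_infty.2 fun n => G_smooth n V h
  have h2 : ContDiffOn ℝ ∞ (fun y => G V (1 - 2 * y)) (Icc 0 1) := by
    refine h1.comp (ContDiff.contDiffOn (contDiff_const.sub (contDiff_const.mul contDiff_id))) ?_
    intro y hy
    constructor
    · linarith [hy.2]
    · linarith [hy.1]
  obtain ⟨c, hc, hc'⟩ := P264.Seeley.exists_ext01 h2
  refine ⟨c, hc, fun θ => ?_⟩
  rw [hc' _ ⟨by linarith [Real.cos_le_one θ], by linarith [Real.neg_one_le_cos θ]⟩]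
  have e : 1 - 2 * ((1 - Real.cos θ) / 2) = Real.cos θ := by ring
  rw [e]
  exact h.arccos_cos θ

end Sym

end Vale.Agent.P220.R2.H180
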