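import Vale.Agent.P220.R2.H180.Shrink

/-!
# The shrinking family of an arc from `1` to `-1`
-/

open Set Filter Topology
open scoped ContDiff

namespace Vale.Agent.P220.R2.H180

/-- `c` restricted to `[0, 1]` is a smoothly embedded arc from `1` to `-1`. -/
structure IsArc (c : ℝ → ℂ) : Prop where
  smooth : ContDiff ℝ ∞ c
  zero : c 0 = 1
  one : c 1 = -1
  inj : ∀ x ∈ Icc (0 : ℝ) 1, ∀ y ∈ Icc (0 : ℝ) 1, c x = c y → x = y
  imm : ∀ x ∈ Icc (0 : ℝ) 1, deriv c x ≠ 0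

/-- The family of arcs from `c(0)` to `c(s)`, normalized, and square roots of
`(1 - C²) / (4 τ (1 - τ))`. -/
structure IsFam (c : ℝ → ℂ) (C b : ℝ × ℝ → ℂ) : Prop where
  hC : ContDiff ℝ ∞ C
  hb : ContDiff ℝ ∞ b
  rel : ∀ s, ∀ τ ∈ Icc (0 : ℝ) 1, C (s, τ) ^ 2 + 4 * τ * (1 - τ) * b (s, τ) ^ 2 = 1
  bne : ∀ s, ∀ τ ∈ Icc (0 : ℝ) 1, b (s, τ) ≠ 0
  inj : ∀ s, ∀ x ∈ Icc (0 : ℝ) 1, ∀ y ∈ Icc (0 : ℝ) 1, C (s, x) = C (s, y) → x = y
  imm : ∀ s, ∀ x ∈ Icc (0 : ℝ) 1, deriv (fun t => C (s, t)) x ≠ 0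
  C0 : ∀ τ, C (0, τ) = 1 - 2 * τ
  b0 : ∀ τ ∈ Icc (0 : ℝ) 1, b (0, τ) = 1
  C1 : ∀ τ, C (1, τ) = c τ

theorem hc_key {c : ℝ → ℂ} (h : ContDiff ℝ ∞ c) (β x y : ℝ) :
    x * hc c (0, β * x) - y * hc c (0, β * y) = (x - y) * hc c (β * y, β * x) := by
  by_cases hβ : β = 0
  · subst hβ
    simp only [zero_mul]
    ring
  · have hβ' : (β : ℂ) ≠ 0 := by exact_mod_cast hβ
    have h1 := hc_mul h 0 (β * x)
    have h2 := hc_mul h 0 (β * y)
    have h3 := hc_mul h (β * y) (β * x)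
    push_cast at h1 h2 h3
    refine mul_left_cancel₀ hβ' ?_
    linear_combination h2 - h1 + h3

theorem IsArc.hc_ne {c : ℝ → ℂ} (h : IsArc c) {x y : ℝ} (hx : x ∈ Icc (0 : ℝ) 1)
    (hy : y ∈ Icc (0 : ℝ) 1) : hc c (x, y) ≠ 0 := by
  rcases eq_or_ne x y with h1 | h1
  · subst h1
    rw [hc_diag h.smooth]
    exact h.imm x hx
  · intro h2
    have h3 := hc_mul h.smooth x y
    rw [h2, mul_zero, sub_eq_zero] at h3
    exact h1 (h.inj x hx y hy h3.symm)

theorem IsArc.exists_fam {c : ℝ → ℂ} (h : IsArc c) : ∃ C b, IsFam c C b := by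
  set β : ℝ → ℝ := Real.smoothTransition with hβ
  have hβs : ContDiff ℝ ∞ β := Real.smoothTransition.contDiff
  have hβ1 : ∀ s, β s ∈ Icc (0 : ℝ) 1 := fun s =>
    ⟨Real.smoothTransition.nonneg _, Real.smoothTransition.le_one _⟩
  have hmul : ∀ s : ℝ, ∀ τ ∈ Icc (0 : ℝ) 1, ∀ β' ∈ Icc (0 : ℝ) 1, β' * τ ∈ Icc (0 : ℝ) 1 :=
    fun s τ hτ β' hβ' => ⟨mul_nonneg hβ'.1 hτ.1, mul_le_one₀ hβ'.2 hτ.1 hτ.2⟩
  have h0 : (0 : ℝ) ∈ Icc (0 : ℝ) 1 := by simp
  have hΔ := hc_smooth h.smooth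
  have hne : ∀ s, hc c (0, β s) ≠ 0 := fun s => h.hc_ne h0 (hβ1 s)
  -- the square root
  set N : ℝ × ℝ → ℂ := fun x => hc c (0, x.1 * x.2) * hc c (x.1 * x.2, x.1) with hN
  have hNs : ContDiff ℝ ∞ N :=
    (hΔ.comp (contDiff_const.prodMk (contDiff_fst.mul contDiff_snd))).mul
      (hΔ.comp ((contDiff_fst.mul contDiff_snd).prodMk contDiff_fst))
  have hNne : ∀ x ∈ Icc (0 : ℝ) 1 ×ˢ Icc (0 : ℝ) 1, N x ≠ 0 := by
    intro x hx
    have h1 := hmul 0 _ hx.2 _ hx.1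
    exact mul_ne_zero (h.hc_ne h0 h1) (h.hc_ne h1 hx.1)
  obtain ⟨n, hn, hn0, hn2⟩ := exists_sqrt hNs hNne (n₀ := hc c (0, 0)) (by simp [hN, sq])
  set D : ℝ × ℝ → ℂ := fun x => (hc c (0, β x.1))⁻¹ with hD
  have hDs : ContDiff ℝ ∞ D :=
    (hΔ.comp (contDiff_const.prodMk (hβs.comp contDiff_fst))).inv (fun x => hne x.1)
  set C : ℝ × ℝ → ℂ := fun x => 1 - 2 * (x.2 : ℂ) * hc c (0, β x.1 * x.2) * D x with hC
  set b : ℝ × ℝ → ℂ := fun x => n (β x.1, x.2) * D x with hb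
  have hCs : ContDiff ℝ ∞ C := by
    have h1 : ContDiff ℝ ∞ fun x : ℝ × ℝ => (x.2 : ℂ) :=
      Complex.ofRealCLM.contDiff.comp contDiff_snd
    have h2 : ContDiff ℝ ∞ fun x : ℝ × ℝ => hc c (0, β x.1 * x.2) :=
      hΔ.comp (contDiff_const.prodMk ((hβs.comp contDiff_fst).mul contDiff_snd))
    exact contDiff_const.sub (((contDiff_const.mul h1).mul h2).mul hDs)
  have hbs : ContDiff ℝ ∞ b :=
    (hn.comp ((hβs.comp contDiff_fst).prodMk contDiff_snd)).mul hDs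
  have hdiff : ∀ s x y, C (s, x) = C (s, y) + ((x - y : ℝ) : ℂ) * (-2 * hc c (β s * y, β s * x) *
      D (s, 0)) := by
    intro s x y
    have h1 := hc_key h.smooth (β s) x y
    simp only [hC, hD]
    push_cast
    linear_combination (-2 * (hc c (0, β s))⁻¹) * h1
  have hD1 : ∀ s t, hc c (0, β s) * D (s, t) = 1 := fun s t => mul_inv_cancel₀ (hne s)
  have hDne : ∀ s t, D (s, t) ≠ 0 := fun s t => inv_ne_zero (hne s)
  have hb2 : ∀ s, ∀ τ ∈ Icc (0 : ℝ) 1, b (s, τ) ^ 2 =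
      hc c (0, β s * τ) * hc c (β s * τ, β s) * D (s, τ) ^ 2 := by
    intro s τ hτ
    simp only [hb, mul_pow]
    rw [hn2 (β s, τ) ⟨hβ1 s, hτ⟩]
  have hb0 : ∀ τ ∈ Icc (0 : ℝ) 1, b (0, τ) ^ 2 = 1 := by
    intro τ hτ
    have h1 := hb2 0 τ hτ
    have h2 := hD1 0 τ
    have hβ0 : β 0 = 0 := Real.smoothTransition.zero
    rw [hβ0] at h1 h2
    simp only [zero_mul] at h1
    rw [h1]
    linear_combination (hc c (0, 0) * D (0, τ) + 1) * h2
  refine ⟨C, b, hCs, hbs, ?_, ?_, ?_, ?_, ?_, ?_, ?_⟩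
  · intro s τ hτ
    rw [hb2 s τ hτ]
    have h1 := hc_key h.smooth (β s) 1 τ
    have h2 := hD1 s τ
    rw [mul_one] at h1
    have h3 : C (s, τ) = 1 - 2 * (τ : ℂ) * hc c (0, β s * τ) * D (s, τ) := rfl
    rw [h3]
    push_cast at h1
    set A := hc c (0, β s * τ)
    set B := hc c (β s * τ, β s)
    set A0 := hc c (0, β s)
    set d := D (s, τ)
    linear_combination (-4 * τ * A * d ^ 2) * h1 + 4 * τ * A * d * h2
  · intro s τ hτ h1
    have h2 := hb2 s τ hτ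
    rw [h1] at h2
    have h3 : hc c (0, β s * τ) * hc c (β s * τ, β s) ≠ 0 := hNne (β s, τ) ⟨hβ1 s, hτ⟩
    have h4 := mul_ne_zero h3 (pow_ne_zero 2 (hDne s τ))
    rw [← h2] at h4
    simp at h4
  · intro s x hx y hy h1
    have h2 := hdiff s x y
    rw [h1, left_eq_add, mul_eq_zero] at h2
    rcases h2 with h2 | h2
    · have : x - y = 0 := by exact_mod_cast h2
      linarith
    · exfalso
      have h3 := h.hc_ne (hmul s y hy _ (hβ1 s)) (hmul s x hx _ (hβ1 s))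
      exact mul_ne_zero (mul_ne_zero (by norm_num) h3) (hDne s 0) h2
  · intro s x hx
    have h1 : HasDerivAt (fun t : ℝ => C (s, x) + ((t - x : ℝ) : ℂ) *
        (-2 * hc c (β s * x, β s * t) * D (s, 0))) (-2 * hc c (β s * x, β s * x) * D (s, 0)) x := by
      have d1 : HasDerivAt (fun t : ℝ => ((t - x : ℝ) : ℂ)) 1 x := by
        have := ((hasDerivAt_id x).sub_const x).ofReal_comp
        simpa using this
      have d2 : DifferentiableAt ℝ (fun t : ℝ => -2 * hc c (β s * x, β s * t) * D (s, 0)) x := by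
        have : ContDiff ℝ ∞ (fun t : ℝ => -2 * hc c (β s * x, β s * t) * D (s, 0)) :=
          (contDiff_const.mul (hΔ.comp (contDiff_const.prodMk
            (contDiff_const.mul contDiff_id)))).mul contDiff_const
        exact this.differentiable (by simp) x
      have d3 := (d1.mul d2.hasDerivAt).const_add (C (s, x))
      simpa using d3
    have h2 : (fun t => C (s, t)) = fun t : ℝ => C (s, x) + ((t - x : ℝ) : ℂ) *
        (-2 * hc c (β s * x, β s * t) * D (s, 0)) := funext fun t => hdiff s t x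
    rw [h2, h1.deriv]
    have h3 := h.hc_ne (hmul s x hx _ (hβ1 s)) (hmul s x hx _ (hβ1 s))
    exact mul_ne_zero (mul_ne_zero (by norm_num) h3) (hDne s 0)
  · intro τ
    have h2 := hD1 0 τ
    have hβ0 : β 0 = 0 := Real.smoothTransition.zero
    have h3 : C (0, τ) = 1 - 2 * (τ : ℂ) * hc c (0, β 0 * τ) * D (0, τ) := rfl
    rw [h3]
    rw [hβ0] at h2 ⊢
    rw [zero_mul]
    linear_combination (-2 * (τ : ℂ)) * h2
  · intro τ hτ
    have hβ0 : β 0 = 0 := Real.smoothTransition.zero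
    have h00 : b (0, 0) = 1 := by
      have : b (0, 0) = n (β 0, 0) * D (0, 0) := rfl
      rw [this, hβ0, hn0]
      have h2 := hD1 0 0
      rwa [hβ0] at h2
    rcases sq_eq_sq_iff_eq_or_eq_neg.1 ((hb0 τ hτ).trans (one_pow 2).symm) with h1 | h1
    · exact h1
    · exfalso
      have hcont : Continuous fun t : ℝ => (b (0, t)).re :=
        Complex.continuous_re.comp (hbs.continuous.comp (by fun_prop))
      have hiv := intermediate_value_Icc' hτ.1 hcont.continuousOn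
      have hmem : (0 : ℝ) ∈ Icc (b (0, τ)).re (b (0, 0)).re := by
        rw [h00, h1]
        simp
      obtain ⟨t, ht, ht0⟩ := hiv hmem
      beta_reduce at ht0
      have h3 := hb0 t ⟨ht.1, ht.2.trans hτ.2⟩
      rcases sq_eq_sq_iff_eq_or_eq_neg.1 (h3.trans (one_pow 2).symm) with h4 | h4
      · rw [h4] at ht0
        simp at ht0
      · rw [h4] at ht0
        simp at ht0
  · intro τ
    have hβ1' : β 1 = 1 := Real.smoothTransition.one
    have h2 := hD1 1 τ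
    have h3 : C (1, τ) = 1 - 2 * (τ : ℂ) * hc c (0, β 1 * τ) * D (1, τ) := rfl
    rw [h3]
    rw [hβ1', one_mul]
    rw [hβ1'] at h2
    have h4 := hc_mul h.smooth 0 1
    have h5 := hc_mul h.smooth 0 τ
    rw [h.zero, h.one] at h4
    rw [h.zero] at h5
    push_cast at h4 h5
    have h6 : hc c (0, 1) = -2 := by linear_combination -h4
    rw [h6] at h2
    linear_combination -h5 + (τ : ℂ) * hc c (0, τ) * h2

end Vale.Agent.P220.R2.H180
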