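import Vale.Agent.P220.R2.H57.Tub
import Vale.Agent.P220.R2.H481.Mfd

/-!
# Fixed point sets of linear involutions on submanifolds
-/

open Set Filter Topology
open scoped ContDiff

set_option linter.unusedSectionVars false

namespace Vale.Agent.P220.R2.H180

open H57

variable {F : Type} [NormedAddCommGroup F] [NormedSpace ℝ F] [FiniteDimensional ℝ F]

/-- `ρ` is a smooth map that retracts a neighbourhood of `x` onto `S`. -/
structure LocRet (S : Set F) (x : F) (ρ : F → F) : Prop where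
  mem : x ∈ S
  smooth : ContDiff ℝ ∞ ρ
  maps : ∀ᶠ y in 𝓝 x, ρ y ∈ S
  fix : ∀ᶠ y in 𝓝 x, y ∈ S → ρ y = y

namespace LocRet

variable {S : Set F} {x : F} {ρ : F → F}

theorem self (h : LocRet S x ρ) : ρ x = x := h.fix.self_of_nhds h.mem

theorem tendsto (h : LocRet S x ρ) : Tendsto ρ (𝓝 x) (𝓝 x) := by
  have := h.smooth.continuous.tendsto x
  rwa [h.self] at this

theorem idem (h : LocRet S x ρ) : ∀ᶠ y in 𝓝 x, ρ (ρ y) = ρ y := by
  filter_upwards [h.maps, h.tendsto.eventually h.fix] with y h1 h2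
  exact h2 h1

theorem hasFDerivAt (h : LocRet S x ρ) : HasFDerivAt ρ (fderiv ℝ ρ x) x :=
  (h.smooth.differentiable (by simp) x).hasFDerivAt

theorem fderiv_mem (h : LocRet S x ρ) (v : F) : fderiv ℝ ρ x v ∈ Tn ρ x := by
  have h0 : HasFDerivAt ρ (fderiv ℝ ρ x) (ρ x) := by
    rw [h.self]
    exact h.hasFDerivAt
  have h1 : HasFDerivAt (fun y => ρ (ρ y)) ((fderiv ℝ ρ x).comp (fderiv ℝ ρ x)) x :=
    h0.comp x h.hasFDerivAt
  have h3 := h1.unique (h.hasFDerivAt.congr_of_eventuallyEq h.idem)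
  exact congrArg (fun C => C v) h3

/-- A retract is a submanifold. -/
theorem exists_chart (h : LocRet S x ρ) {P : F →L[ℝ] F} (hP : ∀ v, P v ∈ Tn ρ x)
    (hP2 : ∀ v ∈ Tn ρ x, P v = v) :
    ∃ Θ : OpenPartialHomeomorph F F, x ∈ Θ.source ∧ ContDiffOn ℝ ∞ Θ Θ.source ∧
      ContDiffOn ℝ ∞ Θ.symm Θ.target ∧ (∀ y ∈ Θ.source, y ∈ S ↔ Θ y ∈ Tn ρ x) ∧
      (∀ y ∈ Θ.source, y ∈ S → Θ y = P (y - x)) ∧
      HasFDerivAt Θ (ContinuousLinearMap.id ℝ F) x := by
  have : CompleteSpace F := FiniteDimensional.complete ℝ F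
  set A : F → F := fun y => P (ρ y - x) + (y - ρ y) with hA
  have hAs : ContDiff ℝ ∞ A :=
    (P.contDiff.comp (h.smooth.sub contDiff_const)).add (contDiff_id.sub h.smooth)
  have hAd : HasFDerivAt A (ContinuousLinearMap.id ℝ F) x := by
    have h1 : HasFDerivAt A (P.comp (fderiv ℝ ρ x) + (ContinuousLinearMap.id ℝ F - fderiv ℝ ρ x)) x :=
      (P.hasFDerivAt.comp x (h.hasFDerivAt.sub_const x)).add ((hasFDerivAt_id x).sub h.hasFDerivAt)
    refine h1.congr_fderiv ?_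
    ext v
    change P (fderiv ℝ ρ x v) + (v - fderiv ℝ ρ x v) = v
    rw [hP2 _ (h.fderiv_mem v)]
    abel
  have hAx : A x = 0 := by simp [hA, h.self]
  have hdet : (fderiv ℝ A x).det ≠ 0 := by
    refine H64.det_ne_zero_of_injective ?_
    rw [hAd.fderiv]
    exact fun a b hab => hab
  have hf' : HasFDerivAt A (((fderiv ℝ A x).toContinuousLinearEquivOfDetNeZero hdet : F ≃L[ℝ] F) :
      F →L[ℝ] F) x := by
    rw [ContinuousLinearMap.coe_toContinuousLinearEquivOfDetNeZero, hAd.fderiv]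
    exact hAd
  set e := (hAs.contDiffAt (x := x)).toOpenPartialHomeomorph A hf' (by simp) with he
  have hcoe : (e : F → F) = A := rfl
  have hsrc : x ∈ e.source :=
    ContDiffAt.mem_toOpenPartialHomeomorph_source (hAs.contDiffAt) hf' (by simp)
  have hdc : Continuous fun x => (fderiv ℝ A x).det :=
    ContinuousLinearMap.continuous_det.comp (hAs.continuous_fderiv (by simp))
  -- the estimate
  have hstrict : ∀ᶠ y in 𝓝 x, ‖ρ y - ρ (ρ y) - fderiv ℝ ρ x (y - ρ y)‖ ≤ 1 / 2 * ‖y - ρ y‖ := by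
    have h1 : HasStrictFDerivAt ρ (fderiv ℝ ρ x) x := h.smooth.contDiffAt.hasStrictFDerivAt (by simp)
    have h2 := h1.isLittleO.def (show (0 : ℝ) < 1 / 2 by norm_num)
    have h3 : Tendsto (fun y => (y, ρ y)) (𝓝 x) (𝓝 (x, x)) := tendsto_id.prodMk_nhds h.tendsto
    exact h3.eventually h2
  obtain ⟨O, hO, hOo, hxO⟩ := eventually_nhds_iff.1
    (h.maps.and (h.fix.and (h.idem.and (hstrict.and
      ((hdc.tendsto x).eventually_ne hdet)))))
  refine ⟨e.restrOpen O hOo, ?_, ?_, ?_, ?_, ?_, hAd⟩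
  · rw [OpenPartialHomeomorph.restrOpen_source]
    exact ⟨hsrc, hxO⟩
  · exact hAs.contDiffOn
  · intro y hy
    have hy' : y ∈ e.target ∧ e.symm y ∈ O := by
      have h1 := (e.restrOpen O hOo).map_target hy
      rw [OpenPartialHomeomorph.restrOpen_source] at h1
      have h2 : e ((e.restrOpen O hOo).symm y) = y := (e.restrOpen O hOo).right_inv hy
      refine ⟨?_, h1.2⟩
      rw [← h2]
      exact e.map_source h1.1
    have h1 : (fderiv ℝ A (e.symm y)).det ≠ 0 := (hO _ hy'.2).2.2.2.2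
    have h2 : HasFDerivAt e (((fderiv ℝ A (e.symm y)).toContinuousLinearEquivOfDetNeZero h1 :
        F ≃L[ℝ] F) : F →L[ℝ] F) (e.symm y) := by
      rw [ContinuousLinearMap.coe_toContinuousLinearEquivOfDetNeZero]
      exact (hAs.differentiable (by simp) _).hasFDerivAt
    exact (e.contDiffAt_symm hy'.1 h2 hAs.contDiffAt).contDiffWithinAt
  · intro y hy
    rw [OpenPartialHomeomorph.restrOpen_source] at hy
    obtain ⟨h1, h2, h3, h4, -⟩ := hO y hy.2
    change y ∈ S ↔ A y ∈ Tn ρ x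
    constructor
    · intro hyS
      simp only [hA, h2 hyS, sub_self, add_zero]
      exact hP _
    · intro hyT
      have h5 : y - ρ y ∈ Tn ρ x := by
        have : y - ρ y = A y - P (ρ y - x) := by simp only [hA]; abel
        rw [this]
        exact (Tn ρ x).sub_mem hyT (hP _)
      have h6 : fderiv ℝ ρ x (y - ρ y) = y - ρ y := h5
      rw [h3, sub_self, h6, zero_sub, norm_neg] at h4
      have h7 : ‖y - ρ y‖ = 0 := by linarith [norm_nonneg (y - ρ y)]
      rw [norm_eq_zero, sub_eq_zero] at h7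
      rw [h7]
      exact h1
  · intro y hy hyS
    rw [OpenPartialHomeomorph.restrOpen_source] at hy
    obtain ⟨h1, h2, h3, h4, -⟩ := hO y hy.2
    change A y = P (y - x)
    simp only [hA, h2 hyS, sub_self, add_zero]

/-- Near a fixed point the fixed point set of a linear involution of `S` is a retract. -/
theorem exists_fix (h : LocRet S x ρ) {R : F →L[ℝ] F} (hR : ∀ y, R (R y) = y)
    (hRS : ∀ y ∈ S, R y ∈ S) (hRx : R x = x) (hRT : ∀ v ∈ Tn ρ x, R v ∈ Tn ρ x) :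
    ∃ r : F → F, LocRet {y | y ∈ S ∧ R y = y} x r ∧
      ∀ v, v ∈ Tn r x ↔ v ∈ Tn ρ x ∧ R v = v := by
  obtain ⟨P₀, hP₀, hP₀2⟩ := exists_projection (Tn ρ x)
  set P : F →L[ℝ] F := (1 / 2 : ℝ) • (P₀ + R.comp (P₀.comp R)) with hPdef
  have hPa : ∀ v, P v = (1 / 2 : ℝ) • (P₀ v + R (P₀ (R v))) := fun v => rfl
  have hP : ∀ v, P v ∈ Tn ρ x := fun v => by
    rw [hPa]
    exact (Tn ρ x).smul_mem _ ((Tn ρ x).add_mem (hP₀ v) (hRT _ (hP₀ _)))
  have hP2 : ∀ v ∈ Tn ρ x, P v = v := fun v hv => by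
    rw [hPa, hP₀2 v hv, hP₀2 _ (hRT v hv), hR, ← two_smul ℝ v, smul_smul]
    norm_num
  have hPR : ∀ v, P (R v) = R (P v) := fun v => by
    rw [hPa, hPa, hR, map_smul, map_add, hR, add_comm]
  obtain ⟨Θ, hxs, hΘ, hΘs, hS, hΘP, hΘd⟩ := h.exists_chart hP hP2
  have hΘx : Θ x = 0 := by rw [hΘP x hxs h.mem, sub_self, map_zero]
  have h0t : (0 : F) ∈ Θ.target := by
    have := Θ.map_source hxs
    rwa [hΘx] at this
  have hs0 : Θ.symm 0 = x := by rw [← hΘx]; exact Θ.left_inv hxs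
  set M : F →L[ℝ] F := (1 / 2 : ℝ) • (ContinuousLinearMap.id ℝ F + R) with hM
  have hMa : ∀ v, M v = (1 / 2 : ℝ) • (v + R v) := fun v => rfl
  have hRM : ∀ v, R (M v) = M v := fun v => by
    rw [hMa, map_smul, map_add, hR, add_comm]
  have hMf : ∀ v, R v = v → M v = v := fun v hv => by
    rw [hMa, hv, ← two_smul ℝ v, smul_smul]
    norm_num
  have hMT : ∀ v ∈ Tn ρ x, M v ∈ Tn ρ x := fun v hv => by
    rw [hMa]
    exact (Tn ρ x).smul_mem _ ((Tn ρ x).add_mem hv (hRT _ hv))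
  set w : F → F := fun y => M (P (y - x)) with hw
  have hws : ContDiff ℝ ∞ w := M.contDiff.comp (P.contDiff.comp (contDiff_id.sub contDiff_const))
  have hwx : w x = 0 := by simp [hw]
  have hwt : Tendsto w (𝓝 x) (𝓝 0) := by
    have := hws.continuous.tendsto x
    rwa [hwx] at this
  have hwn : ∀ᶠ y in 𝓝 x, w y ∈ Θ.target := hwt.eventually (Θ.open_target.mem_nhds h0t)
  obtain ⟨O, hO, hOo, hxO⟩ := eventually_nhds_iff.1 hwn
  have hr0 : ContDiffOn ℝ ∞ (fun y => Θ.symm (w y)) O :=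
    hΘs.comp hws.contDiffOn (fun y hy => hO y hy)
  obtain ⟨r, hr, hrr⟩ := H481.exists_germ_ext (hOo.mem_nhds hxO) hr0
  have hst : Tendsto (fun y => Θ.symm (w y)) (𝓝 x) (𝓝 x) := by
    have h1 := (Θ.continuousAt_symm h0t).tendsto
    rw [hs0] at h1
    exact h1.comp hwt
  refine ⟨r, ⟨⟨h.mem, hRx⟩, hr, ?_, ?_⟩, ?_⟩
  · have hst2 : Tendsto (fun y => R (Θ.symm (w y))) (𝓝 x) (𝓝 x) := by
      have h1 := (R.continuous.tendsto x).comp hst
      rwa [hRx] at h1
    filter_upwards [hrr, hwn, hst.eventually (Θ.open_source.mem_nhds hxs),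
      hst2.eventually (Θ.open_source.mem_nhds hxs)] with y h1 h2 h3 h4
    rw [h1]
    set s := Θ.symm (w y) with hs
    have h5 : Θ s = w y := Θ.right_inv h2
    have h6 : s ∈ S := by
      rw [hS s h3, h5]
      exact hMT _ (hP _)
    refine ⟨h6, ?_⟩
    refine Θ.injOn h4 h3 ?_
    rw [hΘP _ h4 (hRS s h6), h5]
    have h7 : R s - x = R (s - x) := by rw [map_sub, hRx]
    rw [h7, hPR, ← hΘP s h3 h6, h5]
    exact hRM _
  · filter_upwards [hrr, hwn, Θ.open_source.mem_nhds hxs] with y h1 h2 h3 h4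
    rw [h1]
    have h5 : w y = Θ y := by
      rw [hΘP y h3 h4.1]
      simp only [hw]
      refine hMf _ ?_
      rw [← hPR, map_sub, h4.2, hRx]
    rw [h5]
    exact Θ.left_inv h3
  · have hd : HasFDerivAt r (M.comp P) x := by
      have h1 : HasFDerivAt Θ.symm (ContinuousLinearMap.id ℝ F) 0 := by
        have h2 : HasFDerivAt Θ ((ContinuousLinearEquiv.refl ℝ F : F ≃L[ℝ] F) : F →L[ℝ] F)
            (Θ.symm 0) := by
          rw [hs0]
          exact hΘd
        exact Θ.hasFDerivAt_symm h0t h2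
      have h2 : HasFDerivAt w (M.comp P) x := by
        have h3 : HasFDerivAt (fun y : F => y - x) (ContinuousLinearMap.id ℝ F) x :=
          (hasFDerivAt_id x).sub_const x
        exact M.hasFDerivAt.comp x (P.hasFDerivAt.comp x h3)
      have h4 : HasFDerivAt Θ.symm (ContinuousLinearMap.id ℝ F) (w x) := by rw [hwx]; exact h1
      have h3 := h4.comp x h2
      exact h3.congr_of_eventuallyEq hrr
    intro v
    rw [mem_Tn, hd.fderiv]
    change M (P v) = v ↔ _
    constructor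
    · intro h1
      have h2 : v ∈ Tn ρ x := by
        rw [← h1]
        exact hMT _ (hP _)
      refine ⟨h2, ?_⟩
      rw [← h1]
      exact hRM _
    · rintro ⟨h1, h2⟩
      rw [hP2 v h1]
      exact hMf v h2

end LocRet

/-- The fixed point set of a linear involution on a compact submanifold is a submanifold. -/
theorem fix_submanifold {k : ℕ} {S U : Set F} {ρ : F → F} (hρ : IsRet S U ρ) {R : F →L[ℝ] F}
    (hR : ∀ y, R (R y) = y) (hRS : ∀ y ∈ S, R y ∈ S)
    (hk : ∀ x ∈ S, R x = x → ∀ T : Submodule ℝ F, (∀ v, v ∈ T ↔ v ∈ Tn ρ x ∧ R v = v) →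
      Module.finrank ℝ T = k) :
    IsSubmanifold k {x | x ∈ S ∧ R x = x} := by
  rintro x ⟨hx, hRx⟩
  have h : LocRet S x ρ := ⟨hx, hρ.smooth,
    by filter_upwards [hρ.isOpen.mem_nhds (hρ.sub hx)] with y hy using hρ.maps y hy,
    Eventually.of_forall fun y hy => hρ.fix y hy⟩
  have hRT : ∀ v ∈ Tn ρ x, R v ∈ Tn ρ x := by
    intro v hv
    rw [← hρ.mem_Tan hx] at hv ⊢
    obtain ⟨c, hc, hcS, h0, hd⟩ := hv
    refine ⟨fun t => R (c t), R.contDiff.comp hc, fun t => hRS _ (hcS t), by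
      beta_reduce
      rw [h0, hRx], ?_⟩
    have h1 : HasDerivAt c v 0 := by
      rw [← hd]
      exact (hc.differentiable (by simp) 0).hasDerivAt
    exact (R.hasFDerivAt.comp_hasDerivAt 0 h1).deriv
  obtain ⟨r, hr, hTn⟩ := h.exists_fix hR hRS hRx hRT
  obtain ⟨P, hP, hP2⟩ := exists_projection (Tn r x)
  obtain ⟨Θ, h1, h2, h3, h4, -, -⟩ := hr.exists_chart hP hP2
  exact ⟨Θ, Tn r x, h1, h2, h3, hk x hx hRx _ hTn, h4⟩

end Vale.Agent.P220.R2.H180
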