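import Vale.Agent.P220.R2.H180.Even

/-!
# Shrinking an arc in the plane
-/

open Set Filter Topology
open scoped ContDiff

namespace Vale.Agent.P220.R2.H180

/-- The difference quotient of a complex valued function. -/
noncomputable def hc (c : ℝ → ℂ) (x : ℝ × ℝ) : ℂ :=
  (hd (fun t => (c t).re) x : ℂ) + (hd (fun t => (c t).im) x : ℂ) * Complex.I

theorem re_smooth {c : ℝ → ℂ} (h : ContDiff ℝ ∞ c) : ContDiff ℝ ∞ fun t => (c t).re :=
  Complex.reCLM.contDiff.comp h

theorem im_smooth {c : ℝ → ℂ} (h : ContDiff ℝ ∞ c) : ContDiff ℝ ∞ fun t => (c t).im :=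
  Complex.imCLM.contDiff.comp h

theorem of_re_im {X : Type*} [NormedAddCommGroup X] [NormedSpace ℝ X] {u v : X → ℝ}
    (hu : ContDiff ℝ ∞ u) (hv : ContDiff ℝ ∞ v) :
    ContDiff ℝ ∞ fun t => (u t : ℂ) + (v t : ℂ) * Complex.I :=
  (Complex.ofRealCLM.contDiff.comp hu).add
    ((Complex.ofRealCLM.contDiff.comp hv).mul contDiff_const)

theorem hc_smooth {c : ℝ → ℂ} (h : ContDiff ℝ ∞ c) : ContDiff ℝ ∞ (hc c) :=
  of_re_im (hd_smooth (re_smooth h)) (hd_smooth (im_smooth h))

theorem hc_mul {c : ℝ → ℂ} (h : ContDiff ℝ ∞ c) (a x : ℝ) :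
    c x - c a = ((x - a : ℝ) : ℂ) * hc c (a, x) := by
  have h1 := hd_mul (re_smooth h) a x
  have h2 := hd_mul (im_smooth h) a x
  apply Complex.ext
  · simp [hc, h1]
  · simp [hc, h2]

theorem hc_diag {c : ℝ → ℂ} (h : ContDiff ℝ ∞ c) (a : ℝ) : hc c (a, a) = deriv c a := by
  have h0 : HasDerivAt c (deriv c a) a := (h.differentiable (by simp) a).hasDerivAt
  have h1 : deriv (fun t => (c t).re) a = (deriv c a).re :=
    (Complex.reCLM.hasFDerivAt.comp_hasDerivAt a h0).deriv
  have h2 : deriv (fun t => (c t).im) a = (deriv c a).im :=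
    (Complex.imCLM.hasFDerivAt.comp_hasDerivAt a h0).deriv
  simp only [hc, hd_diag, h1, h2]
  exact Complex.re_add_im _

/-- a smooth function that is the identity on `[0, 1]` and has values in `[-ε, 1 + ε]` -/
theorem exists_clamp {ε : ℝ} (hε : 0 < ε) : ∃ κ : ℝ → ℝ, ContDiff ℝ ∞ κ ∧
    (∀ x ∈ Icc (0 : ℝ) 1, κ x = x) ∧ ∀ x, κ x ∈ Icc (-ε) (1 + ε) := by
  have hs : ContDiff ℝ ∞ Real.smoothTransition := Real.smoothTransition.contDiff
  refine ⟨fun x => x * (Real.smoothTransition ((x + ε) / ε) *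
    Real.smoothTransition ((1 + ε - x) / ε)), ?_, fun x hx => ?_, fun x => ?_⟩
  · exact contDiff_id.mul ((hs.comp ((contDiff_id.add contDiff_const).div_const ε)).mul
      (hs.comp ((contDiff_const.sub contDiff_id).div_const ε)))
  · have h1 : Real.smoothTransition ((x + ε) / ε) = 1 :=
      Real.smoothTransition.one_of_one_le (by rw [le_div_iff₀ hε]; linarith [hx.1])
    have h2 : Real.smoothTransition ((1 + ε - x) / ε) = 1 :=
      Real.smoothTransition.one_of_one_le (by rw [le_div_iff₀ hε]; linarith [hx.2])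
    beta_reduce
    rw [h1, h2]
    ring
  · set a := Real.smoothTransition ((x + ε) / ε) with ha
    set b := Real.smoothTransition ((1 + ε - x) / ε) with hb
    have a0 : 0 ≤ a := Real.smoothTransition.nonneg _
    have a1 : a ≤ 1 := Real.smoothTransition.le_one _
    have b0 : 0 ≤ b := Real.smoothTransition.nonneg _
    have b1 : b ≤ 1 := Real.smoothTransition.le_one _
    have ab0 : 0 ≤ a * b := mul_nonneg a0 b0
    have ab1 : a * b ≤ 1 := mul_le_one₀ a1 b0 b1
    show x * (a * b) ∈ Icc (-ε) (1 + ε)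
    rcases le_or_gt x (-ε) with h | h
    · have : a = 0 := Real.smoothTransition.zero_of_nonpos
        (div_nonpos_of_nonpos_of_nonneg (by linarith) hε.le)
      rw [this]
      constructor <;> simp <;> linarith
    rcases le_or_gt (1 + ε) x with h' | h'
    · have : b = 0 := Real.smoothTransition.zero_of_nonpos
        (div_nonpos_of_nonpos_of_nonneg (by linarith) hε.le)
      rw [this]
      constructor <;> simp <;> linarith
    rcases le_or_gt 0 x with h0 | h0
    · constructor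
      · have := mul_nonneg h0 ab0
        linarith
      · have : x * (a * b) ≤ x * 1 := mul_le_mul_of_nonneg_left ab1 h0
        linarith
    · constructor
      · have : x * 1 ≤ x * (a * b) := mul_le_mul_of_nonpos_left ab1 h0.le
        linarith
      · have : x * (a * b) ≤ 0 := mul_nonpos_of_nonpos_of_nonneg h0.le ab0
        linarith

/-- A smooth square root of a smooth function without zeros on the square. -/
theorem exists_sqrt {N : ℝ × ℝ → ℂ} (hN : ContDiff ℝ ∞ N)
    (h : ∀ x ∈ Icc (0 : ℝ) 1 ×ˢ Icc (0 : ℝ) 1, N x ≠ 0) {n₀ : ℂ} (h0 : n₀ ^ 2 = N (0, 0)) :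
    ∃ n : ℝ × ℝ → ℂ, ContDiff ℝ ∞ n ∧ n (0, 0) = n₀ ∧
      ∀ x ∈ Icc (0 : ℝ) 1 ×ˢ Icc (0 : ℝ) 1, n x ^ 2 = N x := by
  have hopen : IsOpen {x | N x ≠ 0} := isOpen_ne_fun hN.continuous continuous_const
  obtain ⟨ε, hε, hsub⟩ := (isCompact_Icc.prod isCompact_Icc).exists_cthickening_subset_open
    hopen (fun x hx => h x hx)
  obtain ⟨κ, hκ, hκ1, hκ2⟩ := exists_clamp hε
  have hne : ∀ x : ℝ × ℝ, x.1 ∈ Icc (-ε) (1 + ε) → x.2 ∈ Icc (-ε) (1 + ε) → N x ≠ 0 := by
    intro x h1 h2
    refine hsub ?_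
    have key : ∀ t ∈ Icc (-ε) (1 + ε), ∃ t' ∈ Icc (0 : ℝ) 1, |t - t'| ≤ ε := by
      intro t ht
      rcases le_or_gt t 0 with h3 | h3
      · exact ⟨0, by simp, by rw [sub_zero, abs_le]; constructor <;> linarith [ht.1]⟩
      · rcases le_or_gt 1 t with h4 | h4
        · exact ⟨1, by simp, by rw [abs_le]; constructor <;> linarith [ht.2]⟩
        · exact ⟨t, ⟨h3.le, h4.le⟩, by simpa using hε.le⟩
    obtain ⟨a, ha, ha'⟩ := key _ h1
    obtain ⟨b, hb, hb'⟩ := key _ h2
    refine Metric.mem_cthickening_of_dist_le x (a, b) ε _ ⟨ha, hb⟩ ?_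
    rw [Prod.dist_eq, max_le_iff, Real.dist_eq, Real.dist_eq]
    exact ⟨ha', hb'⟩
  set β : ℝ → ℝ := Real.smoothTransition with hβ
  have hβs : ContDiff ℝ ∞ β := Real.smoothTransition.contDiff
  set P : (ℝ × ℝ) × ℝ → ℝ × ℝ := fun y => (β y.2 * κ y.1.1, β y.2 * κ y.1.2) with hP
  have hPs : ContDiff ℝ ∞ P := by
    have h1 : ContDiff ℝ ∞ fun y : (ℝ × ℝ) × ℝ => β y.2 := hβs.comp contDiff_snd
    exact (h1.mul (hκ.comp (contDiff_fst.comp contDiff_fst))).prodMk
      (h1.mul (hκ.comp (contDiff_snd.comp contDiff_fst)))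
  have hPne : ∀ y, N (P y) ≠ 0 := by
    intro y
    have h1 : ∀ t, β y.2 * κ t ∈ Icc (-ε) (1 + ε) := by
      intro t
      have a0 : 0 ≤ β y.2 := Real.smoothTransition.nonneg _
      have a1 : β y.2 ≤ 1 := Real.smoothTransition.le_one _
      have b := hκ2 t
      constructor
      · nlinarith [b.1, b.2]
      · nlinarith [b.1, b.2]
    exact hne _ (h1 _) (h1 _)
  -- the logarithmic derivative
  set M : (ℝ × ℝ) × ℝ → ℂ := fun y => N (P y) with hM
  have hMs : ContDiff ℝ ∞ M := hN.comp hPs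
  set g : (ℝ × ℝ) × ℝ → ℂ := fun y => fderiv ℝ M y (0, 1) * (M y)⁻¹ with hg
  have hgs : ContDiff ℝ ∞ g :=
    ((hMs.fderiv_right (m := ∞) (by simp)).clm_apply contDiff_const).mul (hMs.inv hPne)
  set G : (ℝ × ℝ) × ℝ → ℂ := fun y => ((∫ r in (0 : ℝ)..y.2, (g (y.1, r)).re : ℝ) : ℂ) +
    ((∫ r in (0 : ℝ)..y.2, (g (y.1, r)).im : ℝ) : ℂ) * Complex.I with hG
  have hGs : ContDiff ℝ ∞ G :=
    of_re_im (H64.contDiff_primitive (Complex.reCLM.contDiff.comp hgs))
      (H64.contDiff_primitive (Complex.imCLM.contDiff.comp hgs))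
  have hGd : ∀ x r, HasDerivAt (fun r => G (x, r)) (g (x, r)) r := by
    intro x r
    have c1 : Continuous fun r => (g (x, r)).re :=
      Complex.continuous_re.comp (hgs.continuous.comp (by fun_prop))
    have c2 : Continuous fun r => (g (x, r)).im :=
      Complex.continuous_im.comp (hgs.continuous.comp (by fun_prop))
    have d1 : HasDerivAt (fun r => ∫ t in (0 : ℝ)..r, (g (x, t)).re) (g (x, r)).re r :=
      intervalIntegral.integral_hasDerivAt_right (c1.intervalIntegrable _ _)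
        (c1.stronglyMeasurableAtFilter _ _) c1.continuousAt
    have d2 : HasDerivAt (fun r => ∫ t in (0 : ℝ)..r, (g (x, t)).im) (g (x, r)).im r :=
      intervalIntegral.integral_hasDerivAt_right (c2.intervalIntegrable _ _)
        (c2.stronglyMeasurableAtFilter _ _) c2.continuousAt
    have d3 := d1.ofReal_comp.add (d2.ofReal_comp.mul_const Complex.I)
    rw [Complex.re_add_im] at d3
    exact d3
  have hkey : ∀ x, M (x, 1) = M (x, 0) * Complex.exp (G (x, 1)) := by
    intro x
    have hd : ∀ r, HasDerivAt (fun r => M (x, r) * Complex.exp (-G (x, r))) 0 r := by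
      intro r
      have d1 : HasDerivAt (fun r => M (x, r)) (fderiv ℝ M (x, r) (0, 1)) r := by
        have e1 : HasFDerivAt M (fderiv ℝ M (x, r)) (x, r) :=
          (hMs.differentiable (by simp) _).hasFDerivAt
        exact e1.comp_hasDerivAt r ((hasDerivAt_const r x).prodMk (hasDerivAt_id r))
      have d2 := (hGd x r).neg.cexp
      have d3 := d1.mul d2
      have e : fderiv ℝ M (x, r) (0, 1) * Complex.exp (-G (x, r)) +
          M (x, r) * (Complex.exp (-G (x, r)) * -g (x, r)) = 0 := by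
        have : M (x, r) ≠ 0 := hPne _
        simp only [hg]
        field_simp
        ring
      exact d3.congr_deriv e
    have hconst := is_const_of_deriv_eq_zero (fun r => (hd r).differentiableAt)
      (fun r => (hd r).deriv) 0 1
    have hG0 : G (x, 0) = 0 := by simp [hG]
    simp only [hG0, neg_zero, Complex.exp_zero, mul_one] at hconst
    rw [hconst, mul_assoc, ← Complex.exp_add, neg_add_cancel, Complex.exp_zero, mul_one]
  have hM0 : ∀ x, M (x, 0) = n₀ ^ 2 := by
    intro x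
    have : β 0 = 0 := Real.smoothTransition.zero
    simp only [hM, hP, this, zero_mul]
    exact h0.symm
  have hM1 : ∀ x ∈ Icc (0 : ℝ) 1 ×ˢ Icc (0 : ℝ) 1, M (x, 1) = N x := by
    intro x hx
    have : β 1 = 1 := Real.smoothTransition.one
    simp only [hM, hP, this, one_mul, hκ1 _ hx.1, hκ1 _ hx.2]
  refine ⟨fun x => n₀ * Complex.exp (G (x, 1) / 2), ?_, ?_, fun x hx => ?_⟩
  · exact contDiff_const.mul (Complex.contDiff_exp.comp
      ((hGs.comp (contDiff_id.prodMk contDiff_const)).div_const 2))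
  · have h00 : ((0 : ℝ), (0 : ℝ)) ∈ Icc (0 : ℝ) 1 ×ˢ Icc (0 : ℝ) 1 := by simp
    -- the path is constant
    have hg0 : ∀ r, g ((0, 0), r) = 0 := by
      intro r
      have e1 : HasDerivAt (fun r => M ((0, 0), r)) (fderiv ℝ M ((0, 0), r) (0, 1)) r := by
        have e1 : HasFDerivAt M (fderiv ℝ M ((0, 0), r)) ((0, 0), r) :=
          (hMs.differentiable (by simp) _).hasFDerivAt
        exact e1.comp_hasDerivAt r ((hasDerivAt_const r _).prodMk (hasDerivAt_id r))
      have e2 : (fun r => M (((0 : ℝ), (0 : ℝ)), r)) = fun _ => N (0, 0) := by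
        funext r
        simp only [hM, hP, hκ1 0 (by simp : (0 : ℝ) ∈ Icc (0 : ℝ) 1), mul_zero]
      rw [e2] at e1
      have e3 := e1.unique (hasDerivAt_const r _)
      simp only [hg, e3, zero_mul]
    have hG1 : G ((0, 0), 1) = 0 := by
      simp only [hG, hg0]
      simp
    show n₀ * Complex.exp (G ((0, 0), 1) / 2) = n₀
    rw [hG1]
    simp
  · show (n₀ * Complex.exp (G (x, 1) / 2)) ^ 2 = N x
    rw [← hM1 x hx, hkey x, hM0, mul_pow, ← Complex.exp_nat_mul]
    congr 2
    push_cast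
    ring

end Vale.Agent.P220.R2.H180
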