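import Vale.Agent.P220.R2.H180.Fix
import Vale.Agent.P220.R2.H57.B.Defs

/-!
# The unit sphere, its cotangent bundle, rotations
-/

open Set Filter Topology
open scoped ContDiff

set_option linter.unusedSectionVars false

namespace Vale.Agent.P220.R2.H180

open H57

variable {E : Type} [NormedAddCommGroup E] [InnerProductSpace ℝ E] [FiniteDimensional ℝ E]

/-- the unit sphere -/
abbrev Sph (E : Type) [NormedAddCommGroup E] : Set E := Metric.sphere (0 : E) 1

theorem mem_Sph {q : E} : q ∈ Sph E ↔ ‖q‖ = 1 := by simp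

theorem curve_sph {q v : E} (hq : ‖q‖ = 1) (hv : inner ℝ q v = (0 : ℝ)) :
    ∃ c : ℝ → E, ContDiff ℝ ∞ c ∧ (∀ t, c t ∈ Sph E) ∧ (∀ t, ∃ a b : ℝ, c t = a • q + b • v) ∧
      c 0 = q ∧ HasDerivAt c v 0 := by
  by_cases hv0 : v = 0
  · subst hv0
    exact ⟨fun _ => q, contDiff_const, fun _ => mem_Sph.2 hq, fun _ => ⟨1, 0, by simp⟩, rfl,
      hasDerivAt_const _ _⟩
  have ha : 0 < ‖v‖ := norm_pos_iff.2 hv0
  refine ⟨fun t => Real.cos (‖v‖ * t) • q + (‖v‖⁻¹ * Real.sin (‖v‖ * t)) • v, ?_, fun t => ?_,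
    fun t => ⟨_, _, rfl⟩, by simp, ?_⟩
  · have h1 : ContDiff ℝ ∞ fun t : ℝ => ‖v‖ * t := contDiff_const.mul contDiff_id
    exact ((Real.contDiff_cos.comp h1).smul contDiff_const).add
      ((contDiff_const.mul (Real.contDiff_sin.comp h1)).smul contDiff_const)
  · rw [mem_Sph, ← sq_eq_sq₀ (norm_nonneg _) zero_le_one, norm_add_sq_real, norm_smul, norm_smul,
      inner_smul_left, inner_smul_right, hv, hq, Real.norm_eq_abs, Real.norm_eq_abs, mul_pow, mul_pow,
      sq_abs, sq_abs, mul_pow]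
    have := Real.sin_sq_add_cos_sq (‖v‖ * t)
    field_simp
    linear_combination ‖v‖ * this
  · have h1 : HasDerivAt (fun t : ℝ => ‖v‖ * t) ‖v‖ 0 := by
      simpa using (hasDerivAt_id (0 : ℝ)).const_mul ‖v‖
    have h2 := (h1.cos.smul_const q).add ((h1.sin.const_mul ‖v‖⁻¹).smul_const v)
    refine h2.congr_deriv ?_
    simp [ha.ne']

theorem tan_sph {q : E} (hq : ‖q‖ = 1) {v : E} : v ∈ Tan (Sph E) q ↔ inner ℝ q v = (0 : ℝ) := by
  constructor
  · rintro ⟨c, hc, hcS, h0, hd⟩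
    have h1 : HasDerivAt c v 0 := by
      rw [← hd]
      exact (hc.differentiable (by simp) 0).hasDerivAt
    have h2 := h1.inner ℝ h1
    have h3 : (fun t => inner ℝ (c t) (c t) : ℝ → ℝ) = fun _ => 1 := by
      funext t
      rw [real_inner_self_eq_norm_sq, mem_Sph.1 (hcS t)]
      norm_num
    rw [h3, h0] at h2
    have h4 := h2.unique (hasDerivAt_const _ _)
    rw [real_inner_comm] at h4
    rw [real_inner_comm]
    linarith
  · intro hv
    obtain ⟨c, h1, h2, -, h3, h4⟩ := curve_sph hq hv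
    exact ⟨c, h1, h2, h3, h4.deriv⟩

theorem cot_sph {z : E × E} : z ∈ Cot (Sph E) ↔ ‖z.1‖ = 1 ∧ inner ℝ z.1 z.2 = (0 : ℝ) := by
  constructor
  · rintro ⟨h1, h2⟩
    rw [mem_Sph] at h1
    exact ⟨h1, (tan_sph h1).1 h2⟩
  · rintro ⟨h1, h2⟩
    exact ⟨mem_Sph.2 h1, (tan_sph h1).2 h2⟩

theorem exists_invsqrt : ∃ g : ℝ → ℝ, ContDiff ℝ ∞ g ∧ ∀ t, 1 / 4 ≤ t → g t = (√t)⁻¹ := by
  set g : ℝ → ℝ := fun t => Real.smoothTransition (8 * t - 1) * (√t)⁻¹ with hg
  have hgs : ContDiff ℝ ∞ g := by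
    rw [contDiff_iff_contDiffAt]
    intro t
    rcases lt_or_ge 0 t with ht | ht
    · have h1 : ContDiffAt ℝ ∞ (fun t : ℝ => √t) t := contDiffAt_id.sqrt ht.ne'
      have h2 : ContDiff ℝ ∞ fun t : ℝ => Real.smoothTransition (8 * t - 1) :=
        Real.smoothTransition.contDiff.comp ((contDiff_const.mul contDiff_id).sub contDiff_const)
      exact h2.contDiffAt.mul (h1.inv (Real.sqrt_pos.2 ht).ne')
    · have h1 : g =ᶠ[𝓝 t] fun _ => 0 := by
        filter_upwards [Iio_mem_nhds (show t < 1 / 8 by linarith)] with x hx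
        have : Real.smoothTransition (8 * x - 1) = 0 :=
          Real.smoothTransition.zero_of_nonpos (by rw [mem_Iio] at hx; linarith)
        simp only [hg, this, zero_mul]
      exact contDiffAt_const.congr_of_eventuallyEq h1
  have hg1 : ∀ t, 1 / 4 ≤ t → g t = (√t)⁻¹ := by
    intro t ht
    have : Real.smoothTransition (8 * t - 1) = 1 :=
      Real.smoothTransition.one_of_one_le (by linarith)
    simp only [hg, this, one_mul]
  exact ⟨g, hgs, hg1⟩

theorem exists_sph_ret : ∃ (U : Set E) (r : E → E), IsRet (Sph E) U r := by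
  obtain ⟨g, hgs, hg1⟩ := exists_invsqrt
  refine ⟨{x | 1 / 4 < ‖x‖ ^ 2}, fun x => g (‖x‖ ^ 2) • x, Metric.isClosed_sphere,
    isOpen_lt continuous_const (by fun_prop), ?_, ?_, ?_, ?_⟩
  · intro x hx
    rw [mem_Sph] at hx
    show 1 / 4 < ‖x‖ ^ 2
    rw [hx]
    norm_num
  · exact (hgs.comp (contDiff_norm_sq ℝ)).smul contDiff_id
  · intro x hx
    have hx' : 1 / 4 < ‖x‖ ^ 2 := hx
    have h0 : 0 < ‖x‖ := by
      rcases (norm_nonneg x).eq_or_lt with h | h
      · rw [← h] at hx'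
        norm_num at hx'
      · exact h
    rw [mem_Sph, norm_smul, hg1 _ hx'.le, Real.sqrt_sq h0.le, Real.norm_eq_abs, abs_inv,
      abs_of_pos h0]
    exact inv_mul_cancel₀ h0.ne'
  · intro x hx
    rw [mem_Sph] at hx
    rw [hx, hg1 _ (by norm_num)]
    simp

theorem Tn_sph {U : Set E} {r : E → E} (hr : IsRet (Sph E) U r) {q : E} (hq : ‖q‖ = 1) {v : E} :
    v ∈ Tn r q ↔ inner ℝ q v = (0 : ℝ) := by
  rw [← hr.mem_Tan (mem_Sph.2 hq), tan_sph hq]

/-! ### Reflections in hyperplanes -/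

/-- the reflection `x ↦ x - 2⟨a, x⟩a` -/
noncomputable def Refl (a : E) : E ≃ₗᵢ[ℝ] E := (ℝ ∙ a)ᗮ.reflection

theorem Refl_apply {a : E} (ha : ‖a‖ = 1) (x : E) : Refl a x = x - (2 * inner ℝ a x : ℝ) • a := by
  unfold Refl
  rw [Submodule.reflection_orthogonal_apply, Submodule.reflection_singleton_apply, ha]
  simp only [RCLike.ofReal_real_eq_id, id_eq, one_pow, div_one, neg_sub, two_smul, two_mul, add_smul]

theorem Refl_det {a : E} (ha : ‖a‖ = 1) :
    LinearMap.det ((Refl a).toLinearEquiv : E →ₗ[ℝ] E) = -1 := by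
  have h1 := Submodule.det_reflection (K := (ℝ ∙ a)ᗮ)
  have ha0 : a ≠ 0 := by
    rintro rfl
    simp at ha
  rw [Submodule.orthogonal_orthogonal, finrank_span_singleton ha0, pow_one] at h1
  exact h1

/-- `L` is invariant under the rotations that fix `e`. -/
def RotInv (e : E) (L : Set (E × E)) : Prop :=
  ∀ g : E ≃ₗᵢ[ℝ] E, g e = e → LinearMap.det (g.toLinearEquiv : E →ₗ[ℝ] E) = 1 →
    ∀ z ∈ L, (g z.1, g z.2) ∈ L

end Vale.Agent.P220.R2.H180
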